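import Vale.Agent.P235U.UDef

/-! Subgraphs, sums along trees of bounded degree, and classes built in rounds. -/

namespace Vale.Agent.P235

/-- `G` is isomorphic to a subgraph of a finite connected member of the class `P`. -/
def SubOf {V : Type} (G : SimpleGraph V) (P : ∀ W : Type, SimpleGraph W → Prop) : Prop :=
  ∃ (W : Type) (_ : Finite W) (H : SimpleGraph W) (f : G →g H),
    Function.Injective f ∧ H.Connected ∧ P W H

/-- `G` has a tree decomposition along a tree of maximum degree at most `k`, in which different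
bags share at most `k` vertices and every torso belongs to the class `P`. -/
def DegSum {V : Type} (G : SimpleGraph V) (k : ℕ) (P : ∀ W : Type, SimpleGraph W → Prop) : Prop :=
  ∃ (ι : Type) (_ : Finite ι) (T : SimpleGraph ι) (B : ι → Set V), T.IsTree ∧
    (∀ x y, G.Adj x y → ∃ t, x ∈ B t ∧ y ∈ B t) ∧
    (∀ v, (T.induce {t | v ∈ B t}).Connected) ∧
    (∀ s t, s ≠ t → (B s ∩ B t).ncard ≤ k) ∧ (∀ t, (T.neighborSet t).ncard ≤ k) ∧
    ∀ t, P _ (torso G B t)

/-- One round of operations. -/
def Step (k : ℕ) (P : ∀ W : Type, SimpleGraph W → Prop) (V : Type) (G : SimpleGraph V) : Prop :=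
  SubOf G P ∨ SumOf G k P ∨ StarSum G k P ∨ DegSum G k P

end Vale.Agent.P235
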