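import Vale.Agent.P235W.WDef
import Vale.Agent.P235U.UMainB

/-! Subgraphs and sums along trees of bounded degree keep bounded distortion. -/

namespace Vale.Agent.P235.Ws

theorem sub_bdd {P : ∀ W : Type, SimpleGraph W → Prop} (h : Ap.Bdd P) :
    Ap.Bdd fun _ G => SubOf G P := by
  classical
  obtain ⟨C, h⟩ := h
  refine ⟨C, ?_⟩
  rintro V _ G hG ⟨W, _, H, f, hf, hH, hP⟩ ℓ hℓ
  have := Fintype.ofFinite W
  letI := spMetric hG hℓ
  have hd : ∀ x y, spDist G ℓ x y = dist x y := fun _ _ => rfl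
  obtain ⟨M, M0, hM⟩ : ∃ M : ℝ, 0 < M ∧ ∀ x y : V, dist x y ≤ M := by
    obtain ⟨M, hM⟩ := (Set.finite_range fun p : V × V => dist p.1 p.2).bddAbove
    exact ⟨max M 1, lt_max_of_lt_right one_pos,
      fun x y => (hM ⟨(x, y), rfl⟩).trans (le_max_left _ _)⟩
  obtain ⟨L, L1, L2⟩ : ∃ L : Sym2 W → ℝ, (∀ e ∈ G.edgeSet, L (e.map f) = ℓ e) ∧
      ∀ e, (¬ ∃ e' ∈ G.edgeSet, e'.map f = e) → L e = M :=
    ⟨fun e => if k : ∃ e' ∈ G.edgeSet, e'.map f = e then ℓ k.choose else M, fun e he => by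
      have k : ∃ e' ∈ G.edgeSet, e'.map f = e.map f := ⟨e, he, rfl⟩
      exact (dif_pos k).trans (congrArg ℓ (Sym2.map.injective hf k.choose_spec.2)),
      fun e he => dif_neg he⟩
  have hL : ∀ e ∈ H.edgeSet, 0 < L e := fun e _ => by
    by_cases k : ∃ e' ∈ G.edgeSet, e'.map f = e
    · obtain ⟨e', k1, rfl⟩ := k
      rw [L1 e' k1]
      exact hℓ e' k1
    · rwa [L2 e k]
  have e : spDist G ℓ = fun x y => spDist H L (f x) (f y) := by
    funext x y
    refine le_antisymm ?_ (le_spDist hG fun p => (spDist_le hL (p.map f)).trans_eq ?_)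
    · obtain ⟨F, F1, F2⟩ : ∃ F : W → ℝ, (∀ z, F (f z) = dist x z) ∧ ∀ w, 0 ≤ F w ∧ F w ≤ M :=
        ⟨fun w => if k : ∃ z, f z = w then dist x k.choose else 0, fun z => by
          have k : ∃ z', f z' = f z := ⟨z, rfl⟩
          exact (dif_pos k).trans (congrArg (dist x) (hf k.choose_spec)), fun w => by
          beta_reduce
          split_ifs
          · exact ⟨dist_nonneg, hM _ _⟩
          · exact ⟨le_rfl, M0.le⟩⟩
      have k := Tw.lip_le hH (L := L) (F := F) (fun w w' _ => by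
        by_cases k : ∃ e' ∈ G.edgeSet, e'.map f = s(w, w')
        · obtain ⟨e', k1, k2⟩ := k
          rw [← k2, L1 e' k1]
          induction e' using Sym2.ind with
          | h a b =>
            have k0 : G.Adj a b := k1
            have k3 : spDist G ℓ a b ≤ ℓ s(a, b) := by simpa using spDist_le hℓ k0.toWalk
            rw [hd] at k3
            rw [Sym2.map_mk, Sym2.eq_iff] at k2
            rcases k2 with ⟨rfl, rfl⟩ | ⟨rfl, rfl⟩ <;> rw [F1, F1]
            · linarith [dist_triangle x a b]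
            · linarith [dist_triangle_right x a b]
        · rw [L2 _ k]
          linarith [(F2 w).1, (F2 w').2]) (f x) (f y)
      rwa [F1, F1, dist_self, sub_zero] at k
    · rw [SimpleGraph.Walk.edges_map, List.map_map]
      exact congrArg List.sum (List.map_congr_left fun e he => L1 e (p.edges_subset_edgeSet he))
  rw [e]
  exact Ap.EmbedsL1.comap (h W H hH hP L hL) f

theorem deg_bdd {P : ∀ W : Type, SimpleGraph W → Prop} (h : Ap.Bdd P) (k : ℕ) :
    Ap.Bdd fun _ G => DegSum G k P := by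
  classical
  obtain ⟨C, hC⟩ := Us.ub_star ((sub_bdd h).or (Q := fun _ G => TreewidthLE G (k * k))
    (treewidth_embed (k * k))) (k * k + 1)
  refine ⟨C, ?_⟩
  rintro V _ G hG ⟨ι, _, T, B, hT, hE, hc, h2, h3, hP⟩ ℓ hℓ
  refine hC V G hG ?_ ℓ hℓ
  have := Fintype.ofFinite ι
  obtain ⟨v₀⟩ := hG.nonempty
  obtain ⟨D, hD⟩ := Ts.exists_RD hG hℓ hT hE hc
  have ht := fun t => (Ts.torso_dist hG hℓ hE D hD t).1
  obtain ⟨A, a0, a1, a2⟩ : ∃ A : Set V, v₀ ∈ A ∧ (∀ x ∉ A, ∀ s t, x ∈ B s → x ∈ B t → s = t) ∧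
      ∀ x ∈ A, x = v₀ ∨ ∃ s t, s ≠ t ∧ x ∈ B s ∧ x ∈ B t :=
    ⟨{x | x = v₀ ∨ ∃ s t, s ≠ t ∧ x ∈ B s ∧ x ∈ B t}, Or.inl rfl, fun x hx s t hs ht => by
      by_contra c
      exact hx (Or.inr ⟨s, t, c, hs, ht⟩), fun _ hx => hx⟩
  have cd : ∀ t, (A ∩ B t).ncard ≤ k * k + 1 := fun t => by
    have s1 : A ∩ B t ⊆ insert v₀ ↑((T.neighborSet t).toFinset.biUnion
        fun s => (B t ∩ B s).toFinset) := by
      rintro x ⟨x1, x2⟩
      rcases a2 x x1 with rfl | ⟨s, s', k1, k2, k3⟩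
      · exact Or.inl rfl
      obtain ⟨u, u1, u2⟩ : ∃ u, u ≠ t ∧ x ∈ B u := by
        by_cases c : s = t
        · exact ⟨s', fun e => k1 (c.trans e.symm), k3⟩
        · exact ⟨s, c, k2⟩
      obtain ⟨p⟩ := hc x ⟨t, x2⟩ ⟨u, u2⟩
      obtain ⟨α, β, k4, k5, -⟩ := cross_walk (fun z : {t | x ∈ B t} => z.1 = t) p rfl u1
      have k6 : T.Adj α.1 β.1 := k4
      rw [k5] at k6
      refine Or.inr (Finset.mem_coe.2 (Finset.mem_biUnion.2 ⟨β.1, Set.mem_toFinset.2 k6, ?_⟩))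
      exact Set.mem_toFinset.2 ⟨x2, β.2⟩
    refine (Set.ncard_le_ncard s1 (Set.toFinite _)).trans ((Set.ncard_insert_le _ _).trans ?_)
    rw [Set.ncard_coe_finset]
    refine Nat.succ_le_succ ((Finset.card_biUnion_le_card_mul _ _ k fun s hs => ?_).trans
      (Nat.mul_le_mul_right k ?_))
    · rw [← Set.ncard_eq_toFinset_card']
      exact h2 t s (Set.mem_toFinset.1 hs).ne
    · rw [← Set.ncard_eq_toFinset_card']
      exact h3 t
  have nb : ∀ t x y, G.Adj x y → x ∉ A → x ∈ B t → y ∈ B t := fun t x y e hx k1 => by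
    obtain ⟨s, s1, s2⟩ := hE x y e
    exact a1 x hx s t s1 k1 ▸ s2
  have cm : ∀ c : (G.induce Aᶜ).ConnectedComponent, ∃ t, ∀ x ∈ c.supp, x.1 ∈ B t := fun c => by
    obtain ⟨x₀, rfl⟩ := c.exists_rep
    obtain ⟨t, ht⟩ := (hc x₀.1).nonempty
    refine ⟨t, fun x hx => ?_⟩
    obtain ⟨p⟩ := SimpleGraph.ConnectedComponent.exact hx
    have k : ∀ {x y : ↥Aᶜ} (_ : (G.induce Aᶜ).Walk x y), y.1 ∈ B t → x.1 ∈ B t := by
      intro x y p
      induction p with
      | nil => exact id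
      | @cons u v _ e _ ih =>
        have e' : G.Adj u.1 v.1 := e
        exact fun hy => nb t _ _ e'.symm v.2 (ih hy)
    exact k p ht
  choose τ hτ using cm
  have at1 : ∀ c, att G A c ⊆ A ∩ B (τ c) := by
    rintro c q ⟨q1, x, x1, x2⟩
    exact ⟨q1, nb _ _ _ x2 x.2 (hτ c x x1)⟩
  refine ⟨A, ⟨v₀, a0⟩, Or.inr ⟨ι, inferInstance, T,
    fun t => Finset.univ.filter fun x : A => x.1 ∈ B t, hT, fun x y e => ?_, fun v => ?_,
    fun t => ?_⟩, fun c => ⟨Or.inl ?_,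
    (Set.ncard_le_ncard (at1 c) (Set.toFinite _)).trans (cd _)⟩⟩
  · simp only [Finset.mem_filter, Finset.mem_univ, true_and]
    rcases ((SimpleGraph.fromRel_adj _ _ _).1 e).2 with (k | ⟨c, k1, k2⟩) | k | ⟨c, k1, k2⟩
    · exact hE _ _ k
    · exact ⟨_, (at1 c k1).2, (at1 c k2).2⟩
    · exact hE _ _ k.symm
    · exact ⟨_, (at1 c k2).2, (at1 c k1).2⟩
  · have e : {t | v ∈ Finset.univ.filter fun x : A => x.1 ∈ B t} = {t | v.1 ∈ B t} := by
      ext t
      simp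
    rw [e]
    exact hc v.1
  · refine le_trans ?_ (cd t)
    rw [← Set.ncard_coe_finset, ← Set.ncard_image_of_injective _ Subtype.val_injective]
    refine Set.ncard_le_ncard ?_ (Set.toFinite _)
    rintro _ ⟨x, hx, rfl⟩
    exact ⟨x.2, (Finset.mem_filter.1 hx).2⟩
  · obtain ⟨x₀, hx₀⟩ := c.nonempty_supp
    have : Nonempty (B (τ c)) := ⟨⟨_, hτ c x₀ hx₀⟩⟩
    refine ⟨B (τ c), inferInstance, torso G B (τ c), ⟨fun x => ⟨x.1.1, hτ c x.1 x.2⟩,
      fun {x y} e => ?_⟩, fun x y e =>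
        Subtype.ext (Subtype.ext (congrArg (fun z : B (τ c) => z.1) e)),
      ⟨ht _⟩, hP _⟩
    have e' : G.Adj x.1.1 y.1.1 := e
    exact (SimpleGraph.fromRel_adj _ _ _).2
      ⟨fun k => e'.ne (congrArg (fun z : B (τ c) => z.1) k), Or.inl (Or.inl e')⟩

theorem step_bdd {P : ∀ W : Type, SimpleGraph W → Prop} (h : Ap.Bdd P) (k : ℕ) :
    Ap.Bdd (Step k P) :=
  (sub_bdd h).or ((Ts.sumOf_bdd h k).or ((Us.ub_star h k).or (deg_bdd h k)))

theorem iter_bdd (k n : ℕ) : ∀ {P : ∀ W : Type, SimpleGraph W → Prop}, Ap.Bdd P →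
    Ap.Bdd ((Step k)^[n] P) := by
  induction n with
  | zero => exact id
  | succ n ih => exact fun h => ih (step_bdd h k)

end Vale.Agent.P235.Ws
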