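import Vale.Agent.P235U.UDef

/-! Minors, sums with bounded branching at large bags, and one round of operations. -/

namespace Vale.Agent.P235

/-- `G` is a minor of a finite connected member of the class `P`; `φ` gives the branch sets. -/
def MinorOf {V : Type} (G : SimpleGraph V) (P : ∀ W : Type, SimpleGraph W → Prop) : Prop :=
  ∃ (W : Type) (_ : Finite W) (H : SimpleGraph W) (φ : V → Set W), H.Connected ∧ P W H ∧
    (∀ x, (H.induce (φ x)).Connected) ∧ (∀ x y, x ≠ y → Disjoint (φ x) (φ y)) ∧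
    ∀ x y, G.Adj x y → ∃ u ∈ φ x, ∃ v ∈ φ y, H.Adj u v

/-- `G` has a tree decomposition in which different bags share at most `k` vertices and every
bag has at most `k` vertices, or has at most `k` neighbours in the tree and a torso in `P`. -/
def TreeSum {V : Type} (G : SimpleGraph V) (k : ℕ) (P : ∀ W : Type, SimpleGraph W → Prop) : Prop :=
  ∃ (ι : Type) (_ : Finite ι) (T : SimpleGraph ι) (B : ι → Set V), T.IsTree ∧
    (∀ x y, G.Adj x y → ∃ t, x ∈ B t ∧ y ∈ B t) ∧
    (∀ v, (T.induce {t | v ∈ B t}).Connected) ∧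
    (∀ s t, s ≠ t → (B s ∩ B t).ncard ≤ k) ∧
    ∀ t, (B t).ncard ≤ k ∨ ((T.neighborSet t).ncard ≤ k ∧ P _ (torso G B t))

/-- One round of operations. -/
def Round (k : ℕ) (P : ∀ W : Type, SimpleGraph W → Prop) (V : Type) (G : SimpleGraph V) : Prop :=
  MinorOf G P ∨ SumOf G k P ∨ StarSum G k P ∨ TreeSum G k P

end Vale.Agent.P235
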