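import Vale.Agent.P235W.XDef
import Vale.Agent.P235W.WMain

/-! Minors and sums with bounded branching at large bags keep bounded distortion. -/

namespace Vale.Agent.P235.Ws

theorem minor_bdd {P : ∀ W : Type, SimpleGraph W → Prop} (h : Ap.Bdd P) :
    Ap.Bdd fun _ G => MinorOf G P := by
  classical
  obtain ⟨C, h⟩ := h
  refine ⟨max C 0 * 2, ?_⟩
  rintro V _ G hG ⟨W, _, H, φ, hH, hP, f1, f2, f3⟩ ℓ hℓ
  have := Fintype.ofFinite W
  letI := spMetric hG hℓ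
  have hd : ∀ x y, spDist G ℓ x y = dist x y := fun _ _ => rfl
  have un : ∀ {x y u}, u ∈ φ x → u ∈ φ y → x = y := fun {x y u} a b => by
    by_contra c
    exact Set.disjoint_left.1 (f2 x y c) a b
  obtain ⟨δ, δ0, hδ⟩ : ∃ δ : ℝ, 0 < δ ∧ ∀ x y : V, x ≠ y → δ ≤ dist x y := by
    by_cases c : Nonempty {p : V × V // p.1 ≠ p.2}
    · obtain ⟨p, hp⟩ := Finite.exists_min fun p : {p : V × V // p.1 ≠ p.2} => dist p.1.1 p.1.2
      exact ⟨_, Pl.spDist_pos hG hℓ _ _ p.2, fun x y k => hp ⟨(x, y), k⟩⟩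
    · exact ⟨1, one_pos, fun x y k => (c ⟨⟨(x, y), k⟩⟩).elim⟩
  have r0 : ∀ x, φ x := fun x => (f1 x).nonempty.some
  obtain ⟨π, π1⟩ : ∃ π : W → V, ∀ x, ∀ u ∈ φ x, π u = x := by
    obtain ⟨v₀⟩ := hG.nonempty
    exact ⟨fun u => if k : ∃ x, u ∈ φ x then k.choose else v₀, fun x u hu => by
      have k : ∃ x, u ∈ φ x := ⟨x, hu⟩
      exact (dif_pos k).trans (un k.choose_spec hu)⟩
  obtain ⟨ε, ε0, hε⟩ : ∃ ε : ℝ, 0 < ε ∧ 3 * (Fintype.card W + 1) * ε = δ :=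
    ⟨δ / (3 * (Fintype.card W + 1)), by positivity, by field_simp⟩
  obtain ⟨L, L1⟩ : ∃ L : Sym2 W → ℝ, ∀ u v, L s(u, v) = dist (π u) (π v) + ε :=
    ⟨Sym2.lift ⟨fun u v => dist (π u) (π v) + ε, fun u v => by simp only [dist_comm]⟩,
      fun _ _ => rfl⟩
  have hL : ∀ e ∈ H.edgeSet, 0 < L e := fun e _ => by
    induction e using Sym2.ind with
    | h u v =>
      rw [L1]
      positivity
  have lo : ∀ x y, dist x y ≤ spDist H L (r0 x) (r0 y) := fun x y => by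
    have k := Tw.lip_le hH (L := L) (F := fun w => dist x (π w)) (fun w w' _ => by
      rw [L1]
      linarith [dist_triangle x (π w) (π w')]) (r0 x) (r0 y)
    rwa [π1 x _ (r0 x).2, π1 y _ (r0 y).2, dist_self, sub_zero] at k
  have ins : ∀ x (u v : φ x), spDist H L u v ≤ Fintype.card W * ε := fun x u v => by
    obtain ⟨p, hp⟩ := (f1 x u v).exists_isPath
    obtain ⟨q, hq⟩ := Ap.down_walk (ℓ := L) p
    refine (spDist_le hL q).trans (hq.trans_le ?_)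
    have k1 : ∀ a ∈ p.edges.map (Ap.resL L (φ x)), a ≤ ε := fun a ha => by
      obtain ⟨e, -, rfl⟩ := List.mem_map.1 ha
      induction e using Sym2.ind with
      | h a b =>
        show L s(a.1, b.1) ≤ ε
        rw [L1, π1 x _ a.2, π1 x _ b.2, dist_self, zero_add]
    refine (List.sum_le_card_nsmul _ ε k1).trans ?_
    rw [nsmul_eq_mul, List.length_map, SimpleGraph.Walk.length_edges]
    exact mul_le_mul_of_nonneg_right (Nat.cast_le.2
      (hp.length_lt.le.trans (Fintype.card_subtype_le _))) ε0.le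
  have tri := (spMetric hH hL).dist_triangle
  have up : ∀ x y, spDist H L (r0 x) (r0 y) ≤ 2 * dist x y := fun x y => by
    have k := Tw.lip_le hG (L := ℓ) (F := fun z => spDist H L (r0 x) (r0 z) / 2)
      (fun z z' e => by
        obtain ⟨u, hu, v, hv, k⟩ := f3 z z' e
        have k1 : spDist H L u v ≤ L s(u, v) := by simpa using spDist_le hL k.toWalk
        have k2 : spDist G ℓ z z' ≤ ℓ s(z, z') := by simpa using spDist_le hℓ e.toWalk
        rw [L1, π1 z u hu, π1 z' v hv] at k1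
        rw [hd] at k2
        have k3 : spDist H L (r0 z) u ≤ _ := ins z (r0 z) ⟨u, hu⟩
        have k4 : spDist H L v (r0 z') ≤ _ := ins z' ⟨v, hv⟩ (r0 z')
        have k5 : spDist H L (r0 x) (r0 z') ≤ spDist H L (r0 x) (r0 z) + spDist H L (r0 z) (r0 z') :=
          tri _ _ _
        have k6 : spDist H L (r0 z) (r0 z') ≤ spDist H L (r0 z) u + spDist H L u (r0 z') :=
          tri _ _ _
        have k7 : spDist H L u (r0 z') ≤ spDist H L u v + spDist H L v (r0 z') := tri _ _ _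
        have k8 := hδ z z' e.ne
        have k9 : 0 ≤ (Fintype.card W : ℝ) * ε := by positivity
        show spDist H L (r0 x) (r0 z') / 2 - spDist H L (r0 x) (r0 z) / 2 ≤ _
        nlinarith) x y
    have k0 : spDist H L (r0 x) (r0 x) = 0 := (spMetric hH hL).dist_self _
    rw [hd, k0] at k
    linarith
  obtain ⟨Ω, m, μ, f, hf⟩ := Ap.emb_mono hH hL (le_max_left C 0) (h W H hH hP L hL)
  refine ⟨Ω, m, μ, fun x => f (r0 x), fun x y => ⟨(lo x y).trans (hf _ _).1, (hf _ _).2.trans ?_⟩⟩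
  rw [mul_assoc]
  exact mul_le_mul_of_nonneg_left (up x y) (le_max_right _ _)

theorem tree_bdd {P : ∀ W : Type, SimpleGraph W → Prop} (h : Ap.Bdd P) (k : ℕ) :
    Ap.Bdd fun _ G => TreeSum G k P := by
  classical
  obtain ⟨C, hC⟩ := Us.ub_star ((sub_bdd h).or (Q := fun _ G => TreewidthLE G (k * k))
    (treewidth_embed (k * k))) (k * k + 1)
  refine ⟨C, ?_⟩
  rintro V _ G hG ⟨ι, _, T, B, hT, hE, hc, h2, hP⟩ ℓ hℓ
  refine hC V G hG ?_ ℓ hℓ
  have := Fintype.ofFinite ι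
  obtain ⟨v₀⟩ := hG.nonempty
  obtain ⟨D, hD⟩ := Ts.exists_RD hG hℓ hT hE hc
  have ht := fun t => (Ts.torso_dist hG hℓ hE D hD t).1
  obtain ⟨A, a0, a1, a3, a2⟩ : ∃ A : Set V, v₀ ∈ A ∧
      (∀ x ∉ A, ∀ s t, x ∈ B s → x ∈ B t → s = t) ∧ (∀ x ∉ A, ∀ s, x ∈ B s → ¬ (B s).ncard ≤ k) ∧
      ∀ x ∈ A, x = v₀ ∨ (∃ s t, s ≠ t ∧ x ∈ B s ∧ x ∈ B t) ∨ ∃ s, x ∈ B s ∧ (B s).ncard ≤ k :=
    ⟨{x | x = v₀ ∨ (∃ s t, s ≠ t ∧ x ∈ B s ∧ x ∈ B t) ∨ ∃ s, x ∈ B s ∧ (B s).ncard ≤ k},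
      Or.inl rfl, fun x hx s t hs ht => by
        by_contra c
        exact hx (Or.inr (Or.inl ⟨s, t, c, hs, ht⟩)),
      fun x hx s hs c => hx (Or.inr (Or.inr ⟨s, hs, c⟩)), fun _ hx => hx⟩
  have cd : ∀ t, (A ∩ B t).ncard ≤ k * k + 1 := fun t => by
    by_cases c0 : (B t).ncard ≤ k
    · refine (Set.ncard_le_ncard Set.inter_subset_right (Set.toFinite _)).trans (c0.trans ?_)
      nlinarith
    have s1 : A ∩ B t ⊆ insert v₀ ↑((T.neighborSet t).toFinset.biUnion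
        fun s => (B t ∩ B s).toFinset) := by
      rintro x ⟨x1, x2⟩
      rcases a2 x x1 with rfl | k0
      · exact Or.inl rfl
      obtain ⟨u, u1, u2⟩ : ∃ u, u ≠ t ∧ x ∈ B u := by
        rcases k0 with ⟨s, s', k1, k2, k3⟩ | ⟨s, k1, k2⟩
        · by_cases c : s = t
          · exact ⟨s', fun e => k1 (c.trans e.symm), k3⟩
          · exact ⟨s, c, k2⟩
        · exact ⟨s, fun e => c0 (e ▸ k2), k1⟩
      obtain ⟨p⟩ := hc x ⟨t, x2⟩ ⟨u, u2⟩
      obtain ⟨α, β, k4, k5, -⟩ := cross_walk (fun z : {t | x ∈ B t} => z.1 = t) p rfl u1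
      have k6 : T.Adj α.1 β.1 := k4
      rw [k5] at k6
      refine Or.inr (Finset.mem_coe.2 (Finset.mem_biUnion.2 ⟨β.1, Set.mem_toFinset.2 k6, ?_⟩))
      exact Set.mem_toFinset.2 ⟨x2, β.2⟩
    refine (Set.ncard_le_ncard s1 (Set.toFinite _)).trans ((Set.ncard_insert_le _ _).trans ?_)
    rw [Set.ncard_coe_finset]
    refine Nat.succ_le_succ ((Finset.card_biUnion_le_card_mul _ _ k fun s hs => ?_).trans
      (Nat.mul_le_mul_right k ?_))
    · rw [← Set.ncard_eq_toFinset_card']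
      exact h2 t s (Set.mem_toFinset.1 hs).ne
    · rw [← Set.ncard_eq_toFinset_card']
      exact ((hP t).resolve_left c0).1
  have nb : ∀ t x y, G.Adj x y → x ∉ A → x ∈ B t → y ∈ B t := fun t x y e hx k1 => by
    obtain ⟨s, s1, s2⟩ := hE x y e
    exact a1 x hx s t s1 k1 ▸ s2
  have cm : ∀ c : (G.induce Aᶜ).ConnectedComponent, ∃ t, ∀ x ∈ c.supp, x.1 ∈ B t := fun c => by
    obtain ⟨x₀, rfl⟩ := c.exists_rep
    obtain ⟨t, ht⟩ := (hc x₀.1).nonempty
    refine ⟨t, fun x hx => ?_⟩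
    obtain ⟨p⟩ := SimpleGraph.ConnectedComponent.exact hx
    have k : ∀ {x y : ↥Aᶜ} (_ : (G.induce Aᶜ).Walk x y), y.1 ∈ B t → x.1 ∈ B t := by
      intro x y p
      induction p with
      | nil => exact id
      | @cons u v _ e _ ih =>
        have e' : G.Adj u.1 v.1 := e
        exact fun hy => nb t _ _ e'.symm v.2 (ih hy)
    exact k p ht
  choose τ hτ using cm
  have at1 : ∀ c, att G A c ⊆ A ∩ B (τ c) := by
    rintro c q ⟨q1, x, x1, x2⟩
    exact ⟨q1, nb _ _ _ x2 x.2 (hτ c x x1)⟩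
  refine ⟨A, ⟨v₀, a0⟩, Or.inr ⟨ι, inferInstance, T,
    fun t => Finset.univ.filter fun x : A => x.1 ∈ B t, hT, fun x y e => ?_, fun v => ?_,
    fun t => ?_⟩, fun c => ⟨Or.inl ?_,
    (Set.ncard_le_ncard (at1 c) (Set.toFinite _)).trans (cd _)⟩⟩
  · simp only [Finset.mem_filter, Finset.mem_univ, true_and]
    rcases ((SimpleGraph.fromRel_adj _ _ _).1 e).2 with (k | ⟨c, k1, k2⟩) | k | ⟨c, k1, k2⟩
    · exact hE _ _ k
    · exact ⟨_, (at1 c k1).2, (at1 c k2).2⟩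
    · exact hE _ _ k.symm
    · exact ⟨_, (at1 c k2).2, (at1 c k1).2⟩
  · have e : {t | v ∈ Finset.univ.filter fun x : A => x.1 ∈ B t} = {t | v.1 ∈ B t} := by
      ext t
      simp
    rw [e]
    exact hc v.1
  · refine le_trans ?_ (cd t)
    rw [← Set.ncard_coe_finset, ← Set.ncard_image_of_injective _ Subtype.val_injective]
    refine Set.ncard_le_ncard ?_ (Set.toFinite _)
    rintro _ ⟨x, hx, rfl⟩
    exact ⟨x.2, (Finset.mem_filter.1 hx).2⟩
  · obtain ⟨x₀, hx₀⟩ := c.nonempty_supp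
    have : Nonempty (B (τ c)) := ⟨⟨_, hτ c x₀ hx₀⟩⟩
    refine ⟨B (τ c), inferInstance, torso G B (τ c), ⟨fun x => ⟨x.1.1, hτ c x.1 x.2⟩,
      fun {x y} e => ?_⟩, fun x y e =>
        Subtype.ext (Subtype.ext (congrArg (fun z : B (τ c) => z.1) e)),
      ⟨ht _⟩, ((hP _).resolve_left (a3 _ x₀.2 _ (hτ c x₀ hx₀))).2⟩
    have e' : G.Adj x.1.1 y.1.1 := e
    exact (SimpleGraph.fromRel_adj _ _ _).2
      ⟨fun k => e'.ne (congrArg (fun z : B (τ c) => z.1) k), Or.inl (Or.inl e')⟩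

theorem round_bdd {P : ∀ W : Type, SimpleGraph W → Prop} (h : Ap.Bdd P) (k : ℕ) :
    Ap.Bdd (Round k P) :=
  (minor_bdd h).or ((Ts.sumOf_bdd h k).or ((Us.ub_star h k).or (tree_bdd h k)))

theorem rounds_iter (k n : ℕ) : ∀ {P : ∀ W : Type, SimpleGraph W → Prop}, Ap.Bdd P →
    Ap.Bdd ((Round k)^[n] P) := by
  induction n with
  | zero => exact id
  | succ n ih => exact fun h => ih (round_bdd h k)

end Vale.Agent.P235.Ws
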